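import Vale.Agent.P254.S.Iface
import Vale.Agent.P254.Bdl.B8
import Vale.Agent.P254.Bdl.B13

/-!
P254, block S, part S-EX3a (helper937): `StmtInvG → StmtDescG → StmtLKG`.
-/

set_option linter.all false

open MeasureTheory Filter
open scoped Topology

namespace Vale.Agent.P254.S.EX3a

open Vale.Agent.P227.M Vale.Agent.P254.S

variable {n : ℕ}

/-- cut-off at radius `R` -/
noncomputable def cut (R : ℝ) (x : E n) : ℝ := max 0 (min 1 (R + 1 - ‖x‖))

theorem cut_nonneg (R : ℝ) (x : E n) : 0 ≤ cut R x := le_max_left _ _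

theorem cut_le_one (R : ℝ) (x : E n) : cut R x ≤ 1 := max_le zero_le_one (min_le_left _ _)

theorem abs_cut (R : ℝ) (x : E n) : |cut R x| ≤ 1 := by
  rw [abs_of_nonneg (cut_nonneg R x)]
  exact cut_le_one R x

theorem lip_cut (R : ℝ) : LipschitzWith 1 (cut R : E n → ℝ) := by
  have h1 : LipschitzWith 1 (fun x : E n => R + 1 - ‖x‖) := by
    refine LipschitzWith.of_dist_le_mul fun x y => ?_
    rw [Real.dist_eq, dist_eq_norm, NNReal.coe_one, one_mul]
    have := abs_norm_sub_norm_le x y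
    rwa [show R + 1 - ‖x‖ - (R + 1 - ‖y‖) = -(‖x‖ - ‖y‖) by ring, abs_neg]
  exact (h1.const_min 1).const_max 0

theorem cut_one {R : ℝ} {x : E n} (h : ‖x‖ ≤ R) : cut R x = 1 := by
  unfold cut
  rw [min_eq_left (by linarith), max_eq_right zero_le_one]

theorem cut_zero {R : ℝ} {x : E n} (h : R + 1 ≤ ‖x‖) : cut R x = 0 := by
  unfold cut
  exact max_eq_left ((min_le_right _ _).trans (by linarith))

theorem tendsto_cut {W : E n → ℝ} (hW : Integrable fun x => Real.exp (-W x))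
    (hZ : 0 < ∫ x, Real.exp (-W x)) : Tendsto (fun j : ℕ => Ex W (cut (j : ℝ))) atTop (𝓝 1) := by
  unfold Ex
  have h1 : Tendsto (fun j : ℕ => ∫ x, cut (j : ℝ) x * Real.exp (-W x)) atTop
      (𝓝 (∫ x, Real.exp (-W x))) := by
    refine tendsto_integral_of_dominated_convergence (fun x => Real.exp (-W x)) (fun j => ?_) hW
      (fun j => ae_of_all _ fun x => ?_) (ae_of_all _ fun x => ?_)
    · exact ((lip_cut (n := n) (j : ℝ)).continuous.aestronglyMeasurable).mul hW.1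
    · rw [Real.norm_eq_abs, abs_mul, abs_of_pos (Real.exp_pos _)]
      exact mul_le_of_le_one_left (Real.exp_pos _).le (abs_cut _ _)
    · refine tendsto_const_nhds.congr' ?_
      filter_upwards [eventually_ge_atTop (⌈‖x‖⌉₊)] with j hj
      rw [cut_one ((Nat.le_ceil _).trans (by exact_mod_cast hj)), one_mul]
  have h2 := h1.div_const (∫ x, Real.exp (-W x))
  rwa [div_self hZ.ne'] at h2

theorem integrable_Q : Integrable fun z : E n => Real.exp (-Q z) := by
  have h := MC.integrable_gauss (E := E n) (a := 1 / 2) (by norm_num)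
  refine h.congr (ae_of_all _ fun z => ?_)
  simp only [Q]
  congr 2
  ring

theorem Q_pos : 0 < ∫ z : E n, Real.exp (-Q z) := integral_exp_pos integrable_Q

theorem Ex_mono {W f g : E n → ℝ} (hZ : 0 < ∫ x, Real.exp (-W x))
    (hf : Integrable fun x => f x * Real.exp (-W x)) (hg : Integrable fun x => g x * Real.exp (-W x))
    (h : ∀ x, f x ≤ g x) : Ex W f ≤ Ex W g := by
  unfold Ex
  refine div_le_div_of_nonneg_right ?_ hZ.le
  exact integral_mono hf hg fun x => mul_le_mul_of_nonneg_right (h x) (Real.exp_pos _).le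

theorem int_bdd {W f : E n → ℝ} (hW : Integrable fun x => Real.exp (-W x)) (hf : Continuous f)
    (h : ∀ x, |f x| ≤ 1) : Integrable fun x => f x * Real.exp (-W x) := by
  refine hW.mono (hf.aestronglyMeasurable.mul hW.1) (ae_of_all _ fun x => ?_)
  rw [Real.norm_eq_abs, Real.norm_eq_abs, abs_mul]
  exact mul_le_of_le_one_left (abs_nonneg _) (h x)

theorem itG_mem {k a b m : ℝ} {V : E n → ℝ} (h0 : ClsG k a b m (fun x : E n => a / 2 * ‖x‖ ^ 2))
    (hT : ∀ c : E n → ℝ, ClsG k a b m c → ClsG k a b m (TG k V c)) : ∀ i, ClsG k a b m (itG k a V i)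
  | 0 => h0
  | i + 1 => hT _ (itG_mem h0 hT i)

/-- a bound for `T 0` from the approximate push-forward -/
theorem bound {T : E n → E n} {L r R : ℝ} (hT : Continuous T)
    (hL : ∀ y, ‖T 0‖ ≤ ‖T y‖ + L * ‖y‖) (hL0 : 0 ≤ L)
    (hr : 3 / 4 < Ex (Q (n := n)) (cut r)) {V : E n → ℝ} (hR : 3 / 4 < Ex V (cut R))
    (h : |Ex Q (fun z => cut R (T z)) - Ex V (cut R)| ≤ 1 / 4) :
    ‖T 0‖ ≤ R + 1 + L * (r + 1) := by
  by_contra hcon
  push Not at hcon
  have h1 : ∀ z : E n, cut R (T z) ≤ 1 - cut r z := by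
    intro z
    rcases le_total ‖z‖ (r + 1) with hz | hz
    · have h2 : R + 1 ≤ ‖T z‖ := by
        have h3 := hL z
        have h4 : L * ‖z‖ ≤ L * (r + 1) := mul_le_mul_of_nonneg_left hz hL0
        linarith
      rw [cut_zero h2]
      linarith [cut_le_one r z]
    · rw [cut_zero hz]
      linarith [cut_le_one R (T z)]
  have hQ := integrable_Q (n := n)
  have h2 : Ex Q (fun z => cut R (T z)) ≤ Ex Q (fun z => 1 - cut r z) :=
    Ex_mono Q_pos (int_bdd hQ ((lip_cut R).continuous.comp hT) fun x => abs_cut _ _)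
      (int_bdd hQ (continuous_const.sub (lip_cut r).continuous) fun x => by
        rw [abs_le]
        constructor <;> linarith [cut_nonneg r x, cut_le_one r x]) h1
  have h3 : Ex (Q (n := n)) (fun z => 1 - cut r z) = 1 - Ex (Q (n := n)) (cut r) := by
    unfold Ex
    have h4 : ∫ z : E n, (1 - cut r z) * Real.exp (-Q z)
        = (∫ z : E n, Real.exp (-Q z)) - ∫ z : E n, cut r z * Real.exp (-Q z) := by
      rw [← integral_sub hQ (int_bdd hQ (lip_cut r).continuous fun x => abs_cut _ _)]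
      refine integral_congr_ae (ae_of_all _ fun z => ?_)
      simp only
      ring
    rw [h4, sub_div, div_self (Q_pos (n := n)).ne']
  rw [h3] at h2
  have h4 := (abs_le.1 h).1
  linarith

theorem stmtLKG_of (h1 : StmtInvG) (h3 : StmtDescG) : StmtLKG := by
  intro n hn V c₀ C₀ hV
  obtain ⟨a, b, m, K₀, ha, hab, hm, hK₀, hinv⟩ := h1 n hn V c₀ C₀ hV
  have hb : 0 < b := ha.trans_le hab
  -- radii
  obtain ⟨r, hr⟩ : ∃ r : ℝ, 3 / 4 < Ex (Q (n := n)) (cut r) := by
    have h := (tendsto_cut (integrable_Q (n := n)) Q_pos).eventually (lt_mem_nhds (by norm_num : (3 / 4 : ℝ) < 1))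
    obtain ⟨j, hj⟩ := h.exists
    exact ⟨j, hj⟩
  obtain ⟨R, hR⟩ : ∃ R : ℝ, 3 / 4 < Ex V (cut R) := by
    have h := (tendsto_cut hV.integrable_exp hV.Z_pos).eventually (lt_mem_nhds (by norm_num : (3 / 4 : ℝ) < 1))
    obtain ⟨j, hj⟩ := h.exists
    exact ⟨j, hj⟩
  refine ⟨b⁻¹, a⁻¹, 18 * m * (a⁻¹) ^ ((3 : ℝ) / 2), R + 1 + a⁻¹ * (r + 1), by positivity, fun ε hε => ?_⟩
  set δ := min ε (1 / 4) / 2 with hδ
  have hδ0 : 0 < δ := by positivity
  have hδ1 : 2 * δ ≤ ε := by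
    rw [hδ]
    linarith [min_le_left ε (1 / 4)]
  have hδ2 : 2 * δ ≤ 1 / 4 := by
    rw [hδ]
    linarith [min_le_right ε (1 / 4)]
  obtain ⟨k, hk1, hk3⟩ : ∃ k : ℝ, K₀ ≤ k ∧ (n : ℝ) / (a * δ ^ 2) ≤ k :=
    ⟨max K₀ ((n : ℝ) / (a * δ ^ 2)), le_max_left _ _, le_max_right _ _⟩
  have hk0 : 1 ≤ k := hK₀.trans hk1
  have hkpos : 0 < k := by linarith
  obtain ⟨h0, hT, hphi⟩ := hinv k hk1
  have hcls : ∀ i, ClsG k a b m (itG k a V i) := itG_mem h0 hT
  obtain ⟨i, hi⟩ := h3 n hn V c₀ C₀ a b m k hV ha hm hk0 hcls (fun i => (hphi _ (hcls i)).1) δ hδ0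
  obtain ⟨hN, hS⟩ := hphi _ (hcls i)
  set φ₀ := MM.phiK k (itG k a V i) with hφ₀
  obtain ⟨H, hg1, hg2, hg3, hg4, hg5⟩ := MC.toC21_fields hn φ₀ _ _ m hN hm hS
  have hs : Real.sqrt ((n : ℝ) / (a * k)) ≤ δ := by
    apply Real.sqrt_le_iff.2
    refine ⟨hδ0.le, ?_⟩
    rw [div_le_iff₀ (by positivity)]
    rw [div_le_iff₀ (by positivity)] at hk3
    nlinarith
  have hi' : ∀ F : E n → ℝ, LipschitzWith 1 F → (∀ x, |F x| ≤ 1) →
      |Ex Q (fun z => F (gradient φ₀ z)) - Ex V F| ≤ 2 * δ := fun F hF hF1 =>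
    (hi F hF hF1).trans (by linarith)
  set w := gradient φ₀ 0 with hw
  have hC : MC.C21c b⁻¹ a⁻¹ (18 * m * (a⁻¹) ^ ((3 : ℝ) / 2)) (fun z => φ₀ z - inner ℝ w z)
      (fun z => gradient φ₀ z - w) H := by
    refine ⟨fun y => ?_, fun y => ?_, hg3, hg4, hg5, by simp [hw]⟩
    · rw [hasGradientAt_iff_hasFDerivAt]
      have h6 := (hg1 y).hasFDerivAt.sub (innerSL ℝ w).hasFDerivAt
      refine (h6.congr_fderiv ?_)
      ext v
      simp [inner_sub_left]
    · exact (hg2 y).sub_const w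
  have hcont : Continuous (gradient φ₀) := continuous_iff_continuousAt.2 fun y => (hg2 y).continuousAt
  refine ⟨_, _, H, w, hC, ?_, fun F hF hF1 => ?_⟩
  · refine bound hcont (fun y => ?_) (by positivity) hr hR ((hi' (cut R) (lip_cut R) (abs_cut R)).trans hδ2)
    have h7 := hC.G_lip (by positivity) (by positivity) 0 y
    rw [sub_sub_sub_cancel_right, zero_sub, norm_neg] at h7
    have h8 : ‖gradient φ₀ 0‖ ≤ ‖gradient φ₀ y‖ + ‖gradient φ₀ 0 - gradient φ₀ y‖ := by
      have := norm_add_le (gradient φ₀ y) (gradient φ₀ 0 - gradient φ₀ y)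
      rwa [add_sub_cancel] at this
    linarith
  · simp only [sub_add_cancel]
    exact (hi' F hF hF1).trans hδ1

end Vale.Agent.P254.S.EX3a
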